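import Crest.Agent.Helper96.S0151.Defs

/-!
# S0151 — leaf C6b (Sum): `hlog` forces `∑ c_i θ_i = ∞`, and the rate of `dropSum` (helper88)
-/

set_option autoImplicit false

open MeasureTheory Crest.AnalysisR.ProductShift
open scoped ENNReal ComplexConjugate

namespace Crest.Agent.Helper88.S0151

open Crest.Agent.Helper96.S0151

/-- pointwise: `-log (weight) ≤ dropCost`. -/
lemma ofReal_neg_log_weight_le (θ c : ℕ → ℝ) (x : ℕ → ℝ) :
    ENNReal.ofReal (- Real.log (weight θ c x)) ≤ dropCost θ c x := by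
  unfold weight
  by_cases h : dropCost θ c x = ⊤
  · rw [if_pos h, h]; exact le_top
  · rw [if_neg h, Real.log_exp, neg_neg, ENNReal.ofReal_toReal h]

/-- for `t ∈ [0,1)` and `θ ∈ (0,1)`: `⌊t + θ⌋` is `1` on `[1-θ, 1)` and `0` before. -/
lemma ofReal_mul_floor_le (cᵢ θᵢ : ℝ) (hθ : 0 < θᵢ ∧ θᵢ < 1) (t : ℝ)
    (ht : t ∈ Set.Ico (0:ℝ) 1) :
    ENNReal.ofReal (cᵢ * (⌊t + θᵢ⌋ : ℝ)) ≤
      (Set.Ico (1 - θᵢ) 1).indicator (fun _ => ENNReal.ofReal cᵢ) t := by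
  by_cases h : 1 - θᵢ ≤ t
  · have hmem : t ∈ Set.Ico (1 - θᵢ) 1 := ⟨h, ht.2⟩
    rw [Set.indicator_of_mem hmem]
    have hfl : ⌊t + θᵢ⌋ = 1 := by
      rw [Int.floor_eq_iff]
      constructor
      · push_cast; linarith
      · push_cast; linarith [ht.2, hθ.2]
    rw [hfl]; simp
  · have hmem : t ∉ Set.Ico (1 - θᵢ) 1 := fun hm => h hm.1
    rw [Set.indicator_of_notMem hmem]
    have hfl : ⌊t + θᵢ⌋ = 0 := by
      rw [Int.floor_eq_iff]
      constructor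
      · push_cast; linarith [ht.1, hθ.1]
      · push_cast; linarith
    rw [hfl]; simp

/-- one-coordinate integral bound. -/
lemma lintegral_unit_floor_le (cᵢ θᵢ : ℝ) (hθ : 0 < θᵢ ∧ θᵢ < 1) (hc : 0 ≤ cᵢ) :
    ∫⁻ t, ENNReal.ofReal (cᵢ * (⌊t + θᵢ⌋ : ℝ)) ∂unitLebesgue ≤ ENNReal.ofReal (cᵢ * θᵢ) := by
  unfold unitLebesgue
  calc ∫⁻ t in Set.Ico (0:ℝ) 1, ENNReal.ofReal (cᵢ * (⌊t + θᵢ⌋ : ℝ))
      ≤ ∫⁻ t in Set.Ico (0:ℝ) 1, (Set.Ico (1 - θᵢ) 1).indicator (fun _ => ENNReal.ofReal cᵢ) t :=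
        setLIntegral_mono' measurableSet_Ico (fun t ht => ofReal_mul_floor_le cᵢ θᵢ hθ t ht)
    _ ≤ ∫⁻ t, (Set.Ico (1 - θᵢ) 1).indicator (fun _ => ENNReal.ofReal cᵢ) t :=
        setLIntegral_le_lintegral _ _
    _ = ENNReal.ofReal cᵢ * volume (Set.Ico (1 - θᵢ) 1) := by
        rw [lintegral_indicator measurableSet_Ico, setLIntegral_const]
    _ = ENNReal.ofReal (cᵢ * θᵢ) := by
        rw [Real.volume_Ico, ENNReal.ofReal_mul hc]
        congr 2; ring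

lemma measurable_dropTerm (θ c : ℕ → ℝ) (i : ℕ) :
    Measurable (fun t : ℝ => ENNReal.ofReal (c i * (⌊t + θ i⌋ : ℝ))) := by
  refine ENNReal.measurable_ofReal.comp ?_
  refine Measurable.const_mul ?_ _
  have h1 : Measurable (fun t : ℝ => ⌊t + θ i⌋) := (measurable_id.add_const _).floor
  exact (measurable_from_top : Measurable (fun n : ℤ => (n : ℝ))).comp h1

/-- the integral of the drop cost is at most `∑ c_i θ_i`. -/
lemma lintegral_dropCost_le (θ c : ℕ → ℝ) (hθ : ∀ i, 0 < θ i ∧ θ i < 1) (hc : ∀ i, 0 ≤ c i) :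
    ∫⁻ x, dropCost θ c x ∂cubeMeasure ≤ ∑' i, ENNReal.ofReal (c i * θ i) := by
  unfold dropCost
  have hmeas : ∀ i, Measurable (fun x : ℕ → ℝ => ENNReal.ofReal (c i * (⌊x i + θ i⌋ : ℝ))) :=
    fun i => (measurable_dropTerm θ c i).comp (measurable_pi_apply i)
  rw [lintegral_tsum (fun i => (hmeas i).aemeasurable)]
  refine ENNReal.tsum_le_tsum (fun i => ?_)
  have hmap : ∫⁻ x, ENNReal.ofReal (c i * (⌊x i + θ i⌋ : ℝ)) ∂cubeMeasure
      = ∫⁻ t, ENNReal.ofReal (c i * (⌊t + θ i⌋ : ℝ)) ∂unitLebesgue := by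
    have h := Measure.infinitePi_map_eval (μ := fun _ : ℕ => unitLebesgue) i
    rw [← h, lintegral_map (measurable_dropTerm θ c i) (measurable_pi_apply i)]
    rfl
  rw [hmap]
  exact lintegral_unit_floor_le (c i) (θ i) (hθ i) (hc i)

/-- `hlog` forces `∑ c_i θ_i = ∞` (`lintegral_tsum`, `∫ ⌊x + θ⌋ dx = θ` on `[0,1)`). -/
theorem sum_unbounded (θ c : ℕ → ℝ) (hθ : ∀ i, 0 < θ i ∧ θ i < 1) (hc : ∀ i, 0 ≤ c i)
    (hlog : ∫⁻ x, ENNReal.ofReal (- Real.log (weight θ c x)) ∂cubeMeasure = ⊤) :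
    ∀ M : ℝ, ∃ N : ℕ, M ≤ ∑ i ∈ Finset.range N, c i * θ i := by
  have htop : ∑' i, ENNReal.ofReal (c i * θ i) = ⊤ := by
    refine top_unique ?_
    calc (⊤ : ℝ≥0∞) = ∫⁻ x, ENNReal.ofReal (- Real.log (weight θ c x)) ∂cubeMeasure := hlog.symm
      _ ≤ ∫⁻ x, dropCost θ c x ∂cubeMeasure :=
          lintegral_mono (fun x => ofReal_neg_log_weight_le θ c x)
      _ ≤ ∑' i, ENNReal.ofReal (c i * θ i) := lintegral_dropCost_le θ c hθ hc
  intro M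
  by_contra hcon
  push Not at hcon
  have hle : ∑' i, ENNReal.ofReal (c i * θ i) ≤ ENNReal.ofReal M := by
    rw [ENNReal.tsum_eq_iSup_nat]
    refine iSup_le (fun N => ?_)
    rw [← ENNReal.ofReal_sum_of_nonneg (fun i _ => mul_nonneg (hc i) (hθ i).1.le)]
    exact ENNReal.ofReal_le_ofReal (hcon N).le
  rw [htop] at hle
  exact ENNReal.ofReal_ne_top (top_unique hle)

theorem dropSum_rate (θ c : ℕ → ℝ) (hθ : ∀ i, 0 < θ i ∧ θ i < 1) (hc : ∀ i, 0 ≤ c i)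
    (hlog : ∫⁻ x, ENNReal.ofReal (- Real.log (weight θ c x)) ∂cubeMeasure = ⊤) :
    ∀ r : ℝ, 0 < r → ∃ N n₀ : ℕ, ∀ n ≥ n₀, Real.exp (- dropSum θ c N n) ≤ r ^ n := by
  intro r hr
  obtain ⟨N, hN⟩ := sum_unbounded θ c hθ hc hlog (1 - Real.log r)
  refine ⟨N, ⌈∑ i ∈ Finset.range N, c i⌉₊, fun n hn => ?_⟩
  have hn' : ∑ i ∈ Finset.range N, c i ≤ (n : ℝ) := (Nat.le_ceil _).trans (by exact_mod_cast hn)
  have hdrop : (n : ℝ) * ∑ i ∈ Finset.range N, c i * θ i - ∑ i ∈ Finset.range N, c i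
      ≤ dropSum θ c N n := by
    unfold dropSum
    rw [Finset.mul_sum, ← Finset.sum_sub_distrib]
    refine Finset.sum_le_sum (fun i _ => ?_)
    have hfl : (n : ℝ) * θ i - 1 < (⌊(n : ℝ) * θ i⌋ : ℝ) := Int.sub_one_lt_floor _
    nlinarith [hc i]
  have hn0 : (0:ℝ) ≤ n := Nat.cast_nonneg n
  have hkey : (n : ℝ) * Real.log r ≥ - dropSum θ c N n := by
    nlinarith [mul_le_mul_of_nonneg_left hN hn0]
  calc Real.exp (- dropSum θ c N n) ≤ Real.exp ((n : ℝ) * Real.log r) := Real.exp_le_exp.2 hkey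
    _ = r ^ n := by
        rw [mul_comm, Real.exp_mul, Real.exp_log hr, Real.rpow_natCast]

end Crest.Agent.Helper88.S0151
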